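import Mathlib

/-!
Reflexive spaces: weak limits along ultrafilters, subspaces, separability of the dual.
-/

namespace Vale.Agent.P079

open Filter Topology

variable {E : Type*} [NormedAddCommGroup E] [NormedSpace ℝ E]

/-- Every element of the bidual is an evaluation. -/
def Refl (E : Type*) [NormedAddCommGroup E] [NormedSpace ℝ E] : Prop :=
  ∀ L : StrongDual ℝ (StrongDual ℝ E), ∃ x : E, ∀ f : StrongDual ℝ E, L f = f x

/-- Weak convergence along a filter. -/
def WT {ι : Type*} (l : Filter ι) (a : ι → E) (x : E) : Prop :=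
  ∀ f : StrongDual ℝ E, Tendsto (fun i => f (a i)) l (𝓝 (f x))

theorem exists_lim_real {ι : Type*} (U : Ultrafilter ι) (u : ι → ℝ) (R : ℝ)
    (h : ∀ᶠ i in (U : Filter ι), |u i| ≤ R) :
    ∃ c : ℝ, |c| ≤ R ∧ Tendsto u (U : Filter ι) (𝓝 c) := by
  have hc : IsCompact (Set.Icc (-R) R) := isCompact_Icc
  have hle : (↑(U.map u) : Filter ℝ) ≤ 𝓟 (Set.Icc (-R) R) := by
    rw [le_principal_iff, Ultrafilter.coe_map, mem_map]
    filter_upwards [h] with i hi
    exact abs_le.1 hi
  obtain ⟨c, hc1, hc2⟩ := hc.ultrafilter_le_nhds (U.map u) hle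
  exact ⟨c, abs_le.2 hc1, hc2⟩

theorem Refl.exists_wt (hE : Refl E) {ι : Type*} (U : Ultrafilter ι) (a : ι → E) (R : ℝ)
    (h : ∀ᶠ i in (U : Filter ι), ‖a i‖ ≤ R) : ∃ x, WT (U : Filter ι) a x := by
  have h1 : ∀ f : StrongDual ℝ E, ∃ c : ℝ, |c| ≤ R * ‖f‖ ∧
      Tendsto (fun i => f (a i)) (U : Filter ι) (𝓝 c) := by
    intro f
    apply exists_lim_real
    filter_upwards [h] with i hi
    calc |f (a i)| ≤ ‖f‖ * ‖a i‖ := f.le_opNorm _
      _ ≤ ‖f‖ * R := by gcongr
      _ = R * ‖f‖ := mul_comm _ _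
  choose c hc1 hc2 using h1
  let L0 : StrongDual ℝ E →ₗ[ℝ] ℝ :=
    { toFun := c
      map_add' := fun f g => by
        refine tendsto_nhds_unique (hc2 (f + g)) ?_
        simpa using (hc2 f).add (hc2 g)
      map_smul' := fun r f => by
        refine tendsto_nhds_unique (hc2 (r • f)) ?_
        simpa using (hc2 f).const_mul r }
  obtain ⟨x, hx⟩ := hE (L0.mkContinuous R (fun f => hc1 f))
  refine ⟨x, fun f => ?_⟩
  rw [← hx f]
  exact hc2 f

theorem WT.mem {ι : Type*} {l : Filter ι} [l.NeBot] {a : ι → E} {x : E} (h : WT l a x)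
    {s : Set E} (hs : Convex ℝ s) (hc : IsClosed s) (ha : ∀ᶠ i in l, a i ∈ s) : x ∈ s := by
  by_contra hx
  obtain ⟨f, u, h1, h2⟩ := geometric_hahn_banach_closed_point hs hc hx
  have : f x ≤ u := le_of_tendsto (h f) (by
    filter_upwards [ha] with i hi using (h1 _ hi).le)
  linarith

theorem WT.sub {ι : Type*} {l : Filter ι} {a b : ι → E} {x y : E} (h : WT l a x)
    (h' : WT l b y) : WT l (fun i => a i - b i) (x - y) := by
  intro f
  simpa using (h f).sub (h' f)

theorem wt_const {ι : Type*} (l : Filter ι) (x : E) : WT l (fun _ => x) x :=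
  fun _ => tendsto_const_nhds

theorem WT.norm_le {ι : Type*} {l : Filter ι} [l.NeBot] {a : ι → E} {x : E} (h : WT l a x)
    {c : ℝ} (ha : ∀ᶠ i in l, ‖a i‖ ≤ c) : ‖x‖ ≤ c := by
  obtain ⟨g, hg1, hg2⟩ := exists_dual_vector'' ℝ x
  have : g x ≤ c := le_of_tendsto (h g) (by
    filter_upwards [ha] with i hi
    calc g (a i) ≤ |g (a i)| := le_abs_self _
      _ ≤ ‖g‖ * ‖a i‖ := g.le_opNorm _
      _ ≤ 1 * c := by gcongr
      _ = c := one_mul c)
  rw [hg2] at this
  simpa using this

theorem Refl.subspace (hE : Refl E) (p : Submodule ℝ E) (hp : IsClosed (p : Set E)) :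
    Refl p := by
  intro L
  let R : StrongDual ℝ E →L[ℝ] StrongDual ℝ p :=
    (ContinuousLinearMap.compL ℝ p E ℝ).flip p.subtypeL
  have hR : ∀ (f : StrongDual ℝ E) (y : p), R f y = f y := fun f y => rfl
  obtain ⟨x, hx⟩ := hE (L.comp R)
  have hxp : x ∈ p := by
    by_contra hxp
    obtain ⟨f, u, h1, h2⟩ := geometric_hahn_banach_closed_point p.convex hp hxp
    have h0 : 0 < u := by simpa using h1 0 p.zero_mem
    have hz : ∀ y ∈ p, f y = 0 := by
      intro y hy
      by_contra hne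
      have := h1 ((u / f y) • y) (p.smul_mem _ hy)
      rw [map_smul, smul_eq_mul, div_mul_cancel₀ _ hne] at this
      exact lt_irrefl _ this
    have hRf : R f = 0 := by
      ext y
      rw [hR]
      simpa using hz y y.2
    have := hx f
    rw [ContinuousLinearMap.comp_apply, hRf, map_zero] at this
    linarith
  refine ⟨⟨x, hxp⟩, fun g => ?_⟩
  obtain ⟨f, hf, -⟩ := exists_extension_norm_eq p g
  have hRf : R f = g := by
    ext y
    rw [hR, hf]
  have := hx f
  rw [ContinuousLinearMap.comp_apply, hRf] at this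
  rw [this, ← hf]

theorem Refl.dual_separable (hE : Refl E) [TopologicalSpace.SeparableSpace E] :
    TopologicalSpace.SeparableSpace (StrongDual ℝ E) := by
  obtain ⟨s, hsc, hsd⟩ := TopologicalSpace.exists_countable_dense E
  choose φ hφ1 hφ2 using fun x : E => exists_dual_vector'' ℝ x
  have hsep : TopologicalSpace.IsSeparable
      (closure (Submodule.span ℝ (φ '' s) : Set (StrongDual ℝ E))) :=
    ((hsc.image φ).isSeparable.span).closure
  rw [← TopologicalSpace.isSeparable_univ_iff]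
  refine hsep.mono ?_
  intro f _
  by_contra hf
  obtain ⟨L, u, h1, h2⟩ := geometric_hahn_banach_closed_point
    (Submodule.span ℝ (φ '' s)).convex.closure isClosed_closure hf
  have h0 : 0 < u := by simpa using h1 0 (subset_closure (Submodule.zero_mem _))
  have hz : ∀ y ∈ Submodule.span ℝ (φ '' s), L y = 0 := by
    intro y hy
    by_contra hne
    have := h1 ((u / L y) • y) (subset_closure (Submodule.smul_mem _ _ hy))
    rw [map_smul, smul_eq_mul, div_mul_cancel₀ _ hne] at this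
    exact lt_irrefl _ this
  obtain ⟨x, hx⟩ := hE L
  have hx0 : x = 0 := by
    by_contra hx0
    have hpos : 0 < ‖x‖ := norm_pos_iff.2 hx0
    obtain ⟨d, hd1, hd2⟩ := hsd.exists_dist_lt x (half_pos hpos)
    have e1 : φ d x = 0 := by
      rw [← hx]
      exact hz _ (Submodule.subset_span ⟨d, hd1, rfl⟩)
    have e2 : φ d d = ‖d‖ := by simpa using hφ2 d
    have e3 : |φ d (d - x)| ≤ ‖φ d‖ * ‖d - x‖ := (φ d).le_opNorm _
    have e4 : ‖φ d‖ * ‖d - x‖ ≤ 1 * ‖d - x‖ := by gcongr; exact hφ1 d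
    rw [map_sub, e1, e2, sub_zero, abs_norm] at e3
    rw [dist_comm, dist_eq_norm] at hd2
    have e5 : ‖x‖ ≤ ‖d‖ + ‖d - x‖ := by
      calc ‖x‖ = ‖d - (d - x)‖ := by congr 1; abel
        _ ≤ ‖d‖ + ‖d - x‖ := norm_sub_le _ _
    linarith
  rw [hx f, hx0, map_zero] at h2
  linarith

end Vale.Agent.P079
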