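import Vale.Agent.P079.Pieces

/-!
Reduction to the separable case.
-/

namespace Vale.Agent.P079

open Filter Topology TopologicalSpace

variable {E : Type*} [NormedAddCommGroup E] [NormedSpace ℝ E]

theorem exists_separable_inva (T : E → E) (C : Set E) (hC : Inva T C)
    (hT : ∀ a ∈ C, ∀ b ∈ C, ‖T a - T b‖ ≤ ‖a - b‖) :
    ∃ C0 ⊆ C, Inva T C0 ∧ IsSeparable C0 := by
  obtain ⟨⟨x0, hx0⟩, hcl, hcv, hmap⟩ := hC
  have hcont : ContinuousOn T C := by
    refine LipschitzOnWith.continuousOn (K := 1) (LipschitzOnWith.of_dist_le_mul ?_)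
    intro a ha b hb
    simpa [dist_eq_norm] using hT a ha b hb
  let A : ℕ → Set E := fun n => Nat.rec {x0} (fun _ B => convexHull ℝ (B ∪ T '' B)) n
  have hA0 : A 0 = {x0} := rfl
  have hAs : ∀ n, A (n + 1) = convexHull ℝ (A n ∪ T '' A n) := fun n => rfl
  have hAC : ∀ n, A n ⊆ C := by
    intro n
    induction n with
    | zero => rw [hA0]; simpa using hx0
    | succ n ih =>
      rw [hAs]
      exact convexHull_min (Set.union_subset ih ((Set.image_mono ih).trans hmap.image_subset)) hcv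
  have hAsep : ∀ n, IsSeparable (A n) := by
    intro n
    induction n with
    | zero => rw [hA0]; exact (Set.countable_singleton x0).isSeparable
    | succ n ih =>
      rw [hAs]
      have h1 : IsSeparable (A n ∪ T '' A n) :=
        ih.union ((hcont.mono (hAC n)).isSeparable_image ih)
      exact (h1.span (R := ℝ)).mono
        (convexHull_min Submodule.subset_span (Submodule.span ℝ _).convex)
  have hAcv : ∀ n, Convex ℝ (A n) := by
    intro n
    cases n with
    | zero => rw [hA0]; exact convex_singleton _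
    | succ n => rw [hAs]; exact convex_convexHull _ _
  have hmono : Monotone A := monotone_nat_of_le_succ fun n => by
    rw [hAs]
    exact Set.subset_union_left.trans (subset_convexHull _ _)
  have hUC : closure (⋃ n, A n) ⊆ C := hcl.closure_subset_iff.2 (Set.iUnion_subset hAC)
  have hUm : Set.MapsTo T (⋃ n, A n) (⋃ n, A n) := by
    intro a ha
    obtain ⟨n, hn⟩ := Set.mem_iUnion.1 ha
    refine Set.mem_iUnion.2 ⟨n + 1, ?_⟩
    rw [hAs]
    exact subset_convexHull _ _ (Or.inr ⟨a, hn, rfl⟩)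
  refine ⟨closure (⋃ n, A n), hUC, ⟨⟨x0, subset_closure (Set.mem_iUnion.2 ⟨0, rfl⟩)⟩,
    isClosed_closure, (hmono.directed_le.convex_iUnion hAcv).closure, ?_⟩,
    (IsSeparable.iUnion hAsep).closure⟩
  exact hUm.closure_of_continuousOn (hcont.mono hUC)

theorem refl_fpp [CompleteSpace E] (hE : Refl E) (T : E → E) (C : Set E) (hC : Inva T C) (R : ℝ)
    (hR : ∀ a ∈ C, ‖a‖ ≤ R) (hT : ∀ a ∈ C, ∀ b ∈ C, ‖T a - T b‖ ≤ ‖a - b‖) :
    ∃ a ∈ C, T a = a := by
  classical
  obtain ⟨C0, hC0, ⟨hne, hcl, hcv, hmap⟩, hsep⟩ := exists_separable_inva T C hC hT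
  let Y : Submodule ℝ E := (Submodule.span ℝ C0).topologicalClosure
  have hYc : IsClosed (Y : Set E) := Submodule.isClosed_topologicalClosure _
  have hYs : IsSeparable (Y : Set E) := (hsep.span (R := ℝ)).closure
  have hCY : ∀ a ∈ C0, a ∈ Y := fun a ha =>
    Submodule.le_topologicalClosure _ (Submodule.subset_span ha)
  have : CompleteSpace Y := hYc.completeSpace_coe
  have : SeparableSpace Y := hYs.separableSpace
  let S : Y → Y := fun a => if h : T a ∈ Y then ⟨T a, h⟩ else a
  have hS : ∀ a : Y, (a : E) ∈ C0 → (S a : E) = T a := by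
    intro a ha
    simp only [S]
    rw [dif_pos (hCY _ (hmap ha))]
  obtain ⟨a, ha, hfix⟩ := separable_fpp (hE.subspace Y hYc) S (Y.subtype ⁻¹' C0) (by
      obtain ⟨x0, hx0⟩ := hne
      refine ⟨⟨⟨x0, hCY _ hx0⟩, hx0⟩, hcl.preimage continuous_subtype_val,
        hcv.linear_preimage _, fun a ha => ?_⟩
      change (S a : E) ∈ C0
      rw [hS a ha]
      exact hmap ha) R (fun a ha => hR _ (hC0 ha)) (by
      intro a ha b hb
      change ‖(S a : E) - S b‖ ≤ ‖(a : E) - b‖
      rw [hS a ha, hS b hb]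
      exact hT _ (hC0 ha) _ (hC0 hb))
  refine ⟨a, hC0 ha, ?_⟩
  rw [← hS a ha, hfix]

end Vale.Agent.P079
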