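import Mathlib

/-!
The game filters on a monoid of pieces.
-/

namespace Vale.Agent.P079

open Filter

/-- Abstract data: pieces with weights and levels. -/
structure GameData (P : Type*) [Monoid P] where
  Good : P → ℝ → Prop
  Lev : P → ℝ → Prop
  good_one : Good 1 1
  good_mul : ∀ F G w w', Good F w → Good G w' → Good (F * G) (w * w')
  lev_mul : ∀ F G δ, Lev F δ → Lev (F * G) δ
  lev_mono : ∀ F δ δ', δ ≤ δ' → Lev F δ → Lev F δ'
  ex : ∀ w δ, 0 < w → w < 1 → 0 < δ → ∃ F, Good F w ∧ Lev F δ

variable {P : Type*} [Monoid P] (Γ : GameData P)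

/-- The first player can force the product of the pieces into the set, ending at the given
total weight. -/
inductive Forces : ℝ → Set P → Prop
  | done (B : Set P) : 1 ∈ B → Forces 1 B
  | step (w w1 w2 δ : ℝ) (B : Set P) : 0 < w1 → w1 < 1 → 0 < w2 → w2 ≤ 1 → 0 < δ → w = w1 * w2 →
      (∀ F, Γ.Good F w1 → Γ.Lev F δ → Forces w2 {G | F * G ∈ B}) → Forces w B

variable {Γ}

theorem Forces.mono {w : ℝ} {A : Set P} (h : Forces Γ w A) :
    ∀ {B : Set P}, A ⊆ B → Forces Γ w B := by
  induction h with
  | done A hA => exact fun hAB => Forces.done _ (hAB hA)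
  | step w w1 w2 δ A h1 h2 h3 h4 h5 h6 _ ih =>
    intro B hAB
    exact Forces.step w w1 w2 δ B h1 h2 h3 h4 h5 h6
      (fun F hF hL => ih F hF hL (fun G hG => hAB hG))

theorem Forces.nonempty {w : ℝ} {A : Set P} (h : Forces Γ w A) : A.Nonempty := by
  induction h with
  | done A hA => exact ⟨1, hA⟩
  | step w w1 w2 δ A h1 h2 h3 h4 h5 h6 _ ih =>
    obtain ⟨F, hF, hL⟩ := Γ.ex w1 δ h1 h2 h5
    obtain ⟨G, hG⟩ := ih F hF hL
    exact ⟨F * G, hG⟩

theorem Forces.bounds {w : ℝ} {A : Set P} (h : Forces Γ w A) : 0 < w ∧ w ≤ 1 := by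
  cases h with
  | done A hA => exact ⟨one_pos, le_rfl⟩
  | step w w1 w2 δ A h1 h2 h3 h4 h5 h6 _ =>
    subst h6
    exact ⟨mul_pos h1 h3, by nlinarith⟩

theorem forces_good_lev {w δ : ℝ} (h0 : 0 < w) (h1 : w < 1) (hδ : 0 < δ) :
    Forces Γ w {F | Γ.Good F w ∧ Γ.Lev F δ} :=
  Forces.step w w 1 δ _ h0 h1 one_pos le_rfl hδ (mul_one w).symm
    (fun F hF hL => Forces.done _ (by simpa using ⟨hF, hL⟩))

theorem Forces.fubini {w w' : ℝ} {A : Set P} (h : Forces Γ w A) (h0 : 0 < w') (h1 : w' ≤ 1) :
    ∀ {C : Set P}, (∀ F ∈ A, Forces Γ w' {G | F * G ∈ C}) → Forces Γ (w * w') C := by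
  induction h with
  | done A hA =>
    intro C hC
    simpa using hC 1 hA
  | step w w1 w2 δ A g1 g2 g3 g4 g5 g6 _ ih =>
    intro C hC
    refine Forces.step _ w1 (w2 * w') δ C g1 g2 (mul_pos g3 h0) (by nlinarith) g5
      (by rw [g6, mul_assoc]) ?_
    intro F hF hL
    apply ih F hF hL
    intro F' hF'
    have := hC (F * F') hF'
    simpa [mul_assoc] using this

theorem Forces.inter {w : ℝ} {A : Set P} (h : Forces Γ w A) :
    ∀ {B : Set P}, Forces Γ w B → Forces Γ w (A ∩ B) := by
  induction h with
  | done A hA =>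
    intro B hB
    generalize hw : (1 : ℝ) = w at hB
    cases hB with
    | done B hB => exact Forces.done _ ⟨hA, hB⟩
    | step w w1 w2 δ B h1 h2 h3 h4 h5 h6 _ =>
      exfalso
      nlinarith
  | step w w1 w2 δ1 A g1 g2 g3 g4 g5 g6 _ ih =>
    have key : ∀ {w' : ℝ} {B : Set P}, Forces Γ w' B → ∀ (e : P) (r ρ : ℝ), Γ.Good e r →
        (e = 1 ∨ Γ.Lev e δ1) → r * ρ = w1 → 0 < ρ → ρ < 1 → w' = ρ * w2 →
        Forces Γ w' ({G | e * G ∈ A} ∩ B) := by
      intro w' B hB
      induction hB with
      | done B hB =>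
        intro e r ρ _ _ _ h0 h1 h2
        exfalso
        nlinarith
      | step w' v1 v2 δ' B k1 k2 k3 k4 k5 k6 hF ih2 =>
        intro e r ρ he hel hr h0 h1 h2
        have hlev : ∀ F, Γ.Lev F (min δ1 δ') → Γ.Lev (e * F) δ1 := by
          intro F hL
          rcases hel with h | h
          · rw [h, one_mul]
            exact Γ.lev_mono _ _ _ (min_le_left _ _) hL
          · exact Γ.lev_mul _ _ _ h
        rcases lt_or_ge ρ v1 with hlt | hle
        · refine Forces.step w' v1 v2 (min δ1 δ') _ k1 k2 k3 k4 (lt_min g5 k5) k6 ?_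
          intro F hG hL
          have := ih2 F hG (Γ.lev_mono _ _ _ (min_le_right _ _) hL) (e * F) (r * v1) (ρ / v1)
            (Γ.good_mul _ _ _ _ he hG) (Or.inr (hlev F hL))
            (by rw [← hr]; field_simp) (div_pos h0 k1) ((div_lt_one k1).2 hlt)
            (by
              have : v1 * v2 = ρ * w2 := by rw [← k6, h2]
              field_simp
              linarith)
          refine this.mono ?_
          intro G hG'
          simpa [mul_assoc] using hG'
        · refine Forces.step w' ρ w2 (min δ1 δ') _ h0 h1 g3 g4 (lt_min g5 k5) h2 ?_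
          intro F hG hL
          have hL' := Γ.lev_mono _ _ _ (min_le_right _ _) hL
          have hB : Forces Γ w2 {G | F * G ∈ B} := by
            rcases hle.eq_or_lt with heq | hlt
            · subst heq
              have : v2 = w2 := by
                have : v1 * v2 = v1 * w2 := by rw [← k6, h2]
                exact mul_left_cancel₀ k1.ne' this
              subst this
              exact hF F hG hL'
            · refine Forces.step w2 (v1 / ρ) v2 1 _ (div_pos k1 h0) ((div_lt_one h0).2 hlt) k3 k4
                one_pos ?_ ?_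
              · have : v1 * v2 = ρ * w2 := by rw [← k6, h2]
                field_simp
                linarith
              · intro G hG2 _
                have hg : Γ.Good (F * G) v1 := by
                  have := Γ.good_mul _ _ _ _ hG hG2
                  rwa [mul_div_cancel₀ _ h0.ne'] at this
                have := hF (F * G) hg (Γ.lev_mul _ _ _ hL')
                simpa [mul_assoc] using this
          have hg : Γ.Good (e * F) w1 := by
            rw [← hr]
            exact Γ.good_mul _ _ _ _ he hG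
          have := ih (e * F) hg (hlev F hL) hB
          refine this.mono ?_
          intro G hG'
          simpa [mul_assoc] using hG'
    intro B hB
    have := key hB 1 1 w1 Γ.good_one (Or.inl rfl) (one_mul _) g1 g2 g6
    simpa using this

/-- An ultrafilter containing all forced sets and a given set whose complement is not forced. -/
theorem exists_ultrafilter {w : ℝ} (h0 : 0 < w) (h1 : w < 1) {A : Set P}
    (hA : ¬ Forces Γ w Aᶜ) :
    ∃ p : Ultrafilter P, A ∈ p ∧ ∀ B, Forces Γ w B → B ∈ p := by
  let 𝓕 : Filter P :=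
    { sets := {B | Forces Γ w B}
      univ_sets := (forces_good_lev h0 h1 one_pos).mono (Set.subset_univ _)
      sets_of_superset := fun h hs => Forces.mono h hs
      inter_sets := fun h h' => Forces.inter h h' }
  have hne : (𝓕 ⊓ 𝓟 A).NeBot := by
    rw [inf_principal_neBot_iff]
    intro U hU
    by_contra hUA
    apply hA
    refine Forces.mono hU ?_
    intro x hx hxA
    exact hUA ⟨x, hx, hxA⟩
  refine ⟨Ultrafilter.of (𝓕 ⊓ 𝓟 A), ?_, ?_⟩
  · exact Ultrafilter.of_le (𝓕 ⊓ 𝓟 A) (mem_inf_of_right (mem_principal_self A))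
  · intro B hB
    exact Ultrafilter.of_le (𝓕 ⊓ 𝓟 A) (mem_inf_of_left hB)

end Vale.Agent.P079
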