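import Vale.Agent.P079.Tools
import Vale.Agent.P079.Game

/-!
The abstract contradiction: weak limit points of pieces cannot be both slowly moving and tight.
-/

namespace Vale.Agent.P079

open Filter Topology

variable {E : Type*} [NormedAddCommGroup E] [NormedSpace ℝ E] {P : Type*} [Monoid P]

/-- The set of drifts. -/
def Drift (Γ : GameData P) (x : P → E) : Set E :=
  {m | ∃ (F : P) (w u : ℝ) (p : Ultrafilter P) (k : E), Γ.Good F w ∧ 0 < w ∧ 0 < u ∧ u < 1 ∧
    (∀ B, Forces Γ u B → B ∈ p) ∧ WT (p : Filter P) (fun G => x (F * G)) k ∧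
    k - x F = (w * (1 - u)) • m}

theorem drift_norm {Γ : GameData P} {x : P → E} {D : ℝ}
    (X1 : ∀ F G w w', Γ.Good F w → Γ.Good G w' → ‖x (F * G) - x F‖ ≤ w * (1 - w') * D)
    {F : P} {w u : ℝ} {p : Ultrafilter P} {k : E} (hF : Γ.Good F w) (hu : 0 < u) (hu1 : u < 1)
    (hp : ∀ B, Forces Γ u B → B ∈ p) (hk : WT (p : Filter P) (fun G => x (F * G)) k) :
    ‖k - x F‖ ≤ w * (1 - u) * D := by
  refine (hk.sub (wt_const _ (x F))).norm_le ?_
  filter_upwards [hp _ (forces_good_lev hu hu1 one_pos)] with G hG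
  exact X1 F G w u hF hG.1

theorem drift_exists (hE : Refl E) {Γ : GameData P} {x : P → E} {D : ℝ}
    (X1 : ∀ F G w w', Γ.Good F w → Γ.Good G w' → ‖x (F * G) - x F‖ ≤ w * (1 - w') * D)
    {F : P} {w u : ℝ} (hF : Γ.Good F w) (hw : 0 < w) (hu : 0 < u) (hu1 : u < 1)
    {A : Set P} (hA : ¬ Forces Γ u Aᶜ) :
    ∃ (p : Ultrafilter P) (k m : E), A ∈ p ∧ (∀ B, Forces Γ u B → B ∈ p) ∧
      WT (p : Filter P) (fun G => x (F * G)) k ∧ m ∈ Drift Γ x ∧
      k - x F = (w * (1 - u)) • m := by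
  obtain ⟨p, hpA, hp⟩ := exists_ultrafilter hu hu1 hA
  obtain ⟨k, hk⟩ := hE.exists_wt p (fun G => x (F * G)) (‖x F‖ + w * (1 - u) * D) (by
    filter_upwards [hp _ (forces_good_lev hu hu1 one_pos)] with G hG
    have h1 := X1 F G w u hF hG.1
    have h2 : ‖x (F * G)‖ ≤ ‖x F‖ + ‖x (F * G) - x F‖ := by
      calc ‖x (F * G)‖ = ‖x F + (x (F * G) - x F)‖ := by congr 1; abel
        _ ≤ _ := norm_add_le _ _
    linarith)
  have hμ : 0 < w * (1 - u) := mul_pos hw (by linarith)
  have he : k - x F = (w * (1 - u)) • ((w * (1 - u))⁻¹ • (k - x F)) := by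
    rw [smul_smul, mul_inv_cancel₀ hμ.ne', one_smul]
  exact ⟨p, k, _, hpA, hp, hk, ⟨F, w, u, p, k, hF, hw, hu, hu1, hp, hk, he⟩, he⟩

theorem drift_bound {Γ : GameData P} {x : P → E} {D : ℝ}
    (X1 : ∀ F G w w', Γ.Good F w → Γ.Good G w' → ‖x (F * G) - x F‖ ≤ w * (1 - w') * D) :
    ∀ m ∈ Drift Γ x, ‖m‖ ≤ D := by
  rintro m ⟨F, w, u, p, k, hF, hw, hu, hu1, hp, hk, he⟩
  have h := drift_norm X1 hF hu hu1 hp hk
  have hμ : 0 < w * (1 - u) := mul_pos hw (by linarith)
  rw [he, norm_smul, Real.norm_eq_abs, abs_of_pos hμ] at h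
  exact le_of_mul_le_mul_left h hμ

set_option maxHeartbeats 1600000 in
theorem abstract_false [CompleteSpace E] [TopologicalSpace.SeparableSpace E] (hE : Refl E)
    (Γ : GameData P) (x : P → E) (K : Set E) (hKc : Convex ℝ K) (hKcl : IsClosed K)
    (hxK : ∀ F, x F ∈ K) (D : ℝ) (hD : 0 < D)
    (X1 : ∀ F G w w', Γ.Good F w → Γ.Good G w' → ‖x (F * G) - x F‖ ≤ w * (1 - w') * D)
    (tight : ∀ F w, Γ.Good F w → ∀ k1 ∈ K, ∀ k2 ∈ K, ∀ k3 ∈ K, ∀ c : ℝ, 0 ≤ c → ∀ ε > 0, ∃ δ > 0,
      ∀ G w', Γ.Good G w' → Γ.Lev G δ →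
        w * (1 - w') * D - ε ≤ ‖x (F * G) - (k1 + c • (k2 - k3))‖) : False := by
  have hdual := hE.dual_separable
  have hDb := drift_bound X1
  have hDne : (Drift Γ x).Nonempty := by
    obtain ⟨p, k, m, -, -, -, hm, -⟩ := drift_exists hE X1 Γ.good_one one_pos
      (show (0 : ℝ) < 1 / 2 by norm_num) (show (1 / 2 : ℝ) < 1 by norm_num)
      (A := Set.univ) (fun h => by simpa using h.nonempty)
    exact ⟨m, hm⟩
  obtain ⟨f0, s0, κ, m0, hκ, hm0, hsup, hsl⟩ :=
    dentable hE (Drift Γ x) hDne D hDb (D / 10) (by positivity)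
  obtain ⟨β, hβ, hκβ⟩ : ∃ β > 0, κ * β ≤ D / 20 := by
    refine ⟨D / (20 * (κ + 1)), by positivity, ?_⟩
    rw [← mul_div_assoc, div_le_div_iff₀ (by positivity) (by positivity)]
    nlinarith
  obtain ⟨m1, ⟨F0, w0, w', p1, k1, hF0, hw0, hw', hw'1, hp1, hk1, he1⟩, hm1⟩ := hsup β hβ
  obtain ⟨h, hh⟩ : ∃ h, h = w0 * (1 - w') := ⟨_, rfl⟩
  have hhpos : 0 < h := by rw [hh]; exact mul_pos hw0 (by linarith)
  obtain ⟨c, hc⟩ : ∃ c, c = f0 (x F0) + h * (s0 - β) := ⟨_, rfl⟩
  have hpos0 : ¬ Forces Γ w' {G | f0 (x (F0 * G)) < c} := by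
    intro hf
    have h1 : f0 k1 ≤ c := le_of_tendsto (hk1 f0) (by
      filter_upwards [hp1 _ hf] with G hG using le_of_lt hG)
    have h2 : f0 k1 - f0 (x F0) = h * f0 m1 := by
      rw [← map_sub, he1, map_smul, smul_eq_mul, hh]
    nlinarith
  obtain ⟨F1, w1, u1, p2, k2, hF1, hw1, hu1, hu11, hp2, hk2, he2⟩ := hm0
  have hk2K : k2 ∈ K := hk2.mem hKc hKcl (Eventually.of_forall fun G => hxK _)
  have hμ1 : 0 < w1 * (1 - u1) := mul_pos hw1 (by linarith)
  obtain ⟨δ1, hδ1, htight⟩ := tight F0 w0 hF0 (x F0) (hxK _) k2 hk2K (x F1) (hxK _)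
    (h / (w1 * (1 - u1))) (by positivity) (h * D / 10) (by positivity)
  rw [he2, smul_smul, div_mul_cancel₀ _ hμ1.ne'] at htight
  have : Nonempty (StrongDual ℝ E) := ⟨0⟩
  obtain ⟨f, hf⟩ : ∃ f : ℕ → StrongDual ℝ E, DenseRange f :=
    ⟨_, TopologicalSpace.denseRange_denseSeq _⟩
  let Inv : P × ℝ × ℝ × E → Prop := fun q =>
    Γ.Good q.1 q.2.1 ∧ 0 < q.2.1 ∧ 0 < q.2.2.1 ∧ q.2.2.1 ≤ 1 ∧ q.2.1 * q.2.2.1 = w' ∧
    ((q.1 = 1 ∧ q.2.1 = 1) ∨ Γ.Lev q.1 δ1) ∧
    ¬ Forces Γ q.2.2.1 {H | f0 (x (F0 * q.1 * H)) < c} ∧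
    ‖x (F0 * q.1) - x F0 - (w0 * (1 - q.2.1)) • m0 - q.2.2.2‖ ≤
      D / 10 * (w0 * (1 - q.2.1)) + κ * (s0 * (w0 * (1 - q.2.1))
        - (f0 (x (F0 * q.1)) - f0 (x F0)) + β * (w0 * (1 - q.2.1))) ∧
    Bound f (1 / 40) (h * D / 10) q.2.2.2 (h * D / 10 + D / 10 * (w0 * (1 - q.2.1)))
  have hInv0 : Inv (1, 1, w', 0) := by
    refine ⟨Γ.good_one, one_pos, hw', hw'1.le, one_mul _, Or.inl ⟨rfl, rfl⟩, ?_, ?_, ?_⟩
    · simpa using hpos0
    · simp
    · simpa using bound_zero f (1 / 40) (l := h * D / 10) (by positivity)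
  obtain ⟨⟨⟨G, r, ρ, S⟩, hG, hr, hρ, hρ1, hrρ, hL, hPos, hN, hB⟩, hT⟩ :=
    noZeno (σ := {q // Inv q}) (fun s => s.1.2.2.2) (fun s => w0 * (1 - s.1.2.1)) h (2 * D)
      (by positivity) (by
        rintro ⟨⟨G, r, ρ, S⟩, hG, hr, hρ, hρ1, hrρ, -⟩
        simp only at hr hρ hρ1 hrρ ⊢
        rw [hh, ← hrρ]
        gcongr
        nlinarith) ⟨_, hInv0⟩ (by
        intro y
        obtain ⟨n, η, hη, hloc⟩ := bound_local hf (show (0 : ℝ) < 1 / 40 by norm_num)
          (show 0 < h * D / 10 by positivity) y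
        refine ⟨η / (2 * D + 1), by positivity, ?_⟩
        rintro ⟨⟨G, r, ρ, S⟩, hG, hr, hρ, hρ1, hrρ, hL, hPos, hN, hB⟩ hS hlt
        simp only at hG hr hρ hρ1 hrρ hL hPos hN hB hS hlt
        have hη1 : η / (2 * D + 1) ≤ η := div_le_self hη.le (by linarith)
        have hη2 : 2 * D * (η / (2 * D + 1)) ≤ η := by
          rw [← mul_div_assoc, div_le_iff₀ (by positivity)]
          nlinarith
        have hη0 : 0 < η / (2 * D + 1) := by positivity
        generalize η / (2 * D + 1) = θ at hη1 hη2 hη0 hS ⊢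
        have hwr : 0 < w0 * r := mul_pos hw0 hr
        have hρlt : ρ < 1 := by
          rcases hρ1.eq_or_lt with h1 | h1
          · exfalso
            rw [h1, mul_one] at hrρ
            rw [hh, hrρ] at hlt
            exact lt_irrefl _ hlt
          · exact h1
        obtain ⟨u, hu1, hu2, hu3, hu4⟩ : ∃ u, ρ ≤ u ∧ u < 1 ∧ w0 * r * (1 - u) ≤ θ ∧
            (u = ρ ∨ w0 * r * (1 - u) = θ) := by
          rcases le_or_gt (w0 * r * (1 - ρ)) θ with h1 | h1
          · exact ⟨ρ, le_rfl, hρlt, h1, Or.inl rfl⟩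
          · have h2 : w0 * r * (1 - (1 - θ / (w0 * r))) = θ := by field_simp; ring
            refine ⟨1 - θ / (w0 * r), ?_, ?_, h2.le, Or.inr h2⟩
            · have : θ / (w0 * r) ≤ 1 - ρ := by
                rw [div_le_iff₀ hwr]
                linarith
              linarith
            · have : 0 < θ / (w0 * r) := by positivity
              linarith
        have hu0 : 0 < u := lt_of_lt_of_le hρ hu1
        have hρ2 : 0 < ρ / u := div_pos hρ hu0
        have hρ21 : ρ / u ≤ 1 := (div_le_one hu0).2 hu1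
        have hA : ¬ Forces Γ u
            {H | ¬ Forces Γ (ρ / u) {H' | f0 (x (F0 * (G * H) * H')) < c}}ᶜ := by
          intro hf'
          apply hPos
          have := hf'.fubini hρ2 hρ21 (C := {H | f0 (x (F0 * G * H)) < c}) (by
            intro H hH
            simp only [Set.mem_compl_iff, Set.mem_ofPred_eq, not_not] at hH
            simpa [mul_assoc] using hH)
          rwa [mul_div_cancel₀ _ hu0.ne'] at this
        have hFG := Γ.good_mul _ _ _ _ hF0 hG
        obtain ⟨p, k, m, hpA, hp, hk, hm, he⟩ := drift_exists hE X1 hFG hwr hu0 hu2 hA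
        obtain ⟨μ, hμ⟩ : ∃ μ, μ = w0 * r * (1 - u) := ⟨_, rfl⟩
        have hμ0 : 0 < μ := by rw [hμ]; exact mul_pos hwr (by linarith)
        have hkn := drift_norm X1 hFG hu0 hu2 hp hk
        rw [← hμ] at he hkn hu3 hu4
        have hnull : ∀ (g : StrongDual ℝ E) (a : ℝ), 0 < a →
            ∀ᶠ H in (p : Filter P), g (x (F0 * G * H) - k) ≤ a := by
          intro g a ha
          have := (hk.sub (wt_const _ k)) g
          rw [sub_self, map_zero] at this
          exact this.eventually (ge_mem_nhds ha)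
        have e1 := hnull f0 (β * μ) (by positivity)
        have e2 : ∀ᶠ H in (p : Filter P), ∀ i ∈ Set.Iic n, f i (x (F0 * G * H) - k) ≤ D / 20 * μ :=
          (eventually_all_finite (Set.finite_Iic n)).2
            (fun i _ => hnull (f i) _ (by positivity))
        have e3 : ∀ᶠ H in (p : Filter P), Γ.Good H u ∧ Γ.Lev H δ1 :=
          hp _ (forces_good_lev hu0 hu2 hδ1)
        have e4 : ∀ᶠ H in (p : Filter P),
            ¬ Forces Γ (ρ / u) {H' | f0 (x (F0 * (G * H) * H')) < c} := hpA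
        obtain ⟨H, ⟨⟨q1, q2⟩, q3, q3'⟩, q4⟩ := (((e1.and e2).and e3).and e4).exists
        obtain ⟨d, hd⟩ : ∃ d, d = x (F0 * G * H) - k := ⟨_, rfl⟩
        rw [← hd] at q1 q2
        have hdn : ‖d‖ ≤ 2 * D * μ := by
          have h1 := X1 _ _ _ _ hFG q3
          rw [← hμ] at h1
          have h2 : d = (x (F0 * G * H) - x (F0 * G)) - (k - x (F0 * G)) := by rw [hd]; abel
          have h3 := norm_sub_le (x (F0 * G * H) - x (F0 * G)) (k - x (F0 * G))
          rw [← h2] at h3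
          linarith
        have hτ : w0 * (1 - r * u) = w0 * (1 - r) + μ := by rw [hμ]; ring
        have hxe : x (F0 * (G * H)) = x (F0 * G) + μ • m + d := by
          rw [hd, ← he, ← mul_assoc]
          abel
        have hInv : Inv (G * H, r * u, ρ / u, S + d) := by
          refine ⟨Γ.good_mul _ _ _ _ hG q3, mul_pos hr hu0, hρ2, hρ21, ?_, Or.inr ?_, q4, ?_, ?_⟩
          · simp only
            rw [← hrρ]
            field_simp
          · rcases hL with ⟨h1, -⟩ | h1
            · simp only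
              rw [h1, one_mul]
              exact q3'
            · exact Γ.lev_mul _ _ _ h1
          · simp only
            rw [hτ, hxe]
            have h1 : x (F0 * G) + μ • m + d - x F0 - (w0 * (1 - r) + μ) • m0 - (S + d) =
                (x (F0 * G) - x F0 - (w0 * (1 - r)) • m0 - S) + μ • (m - m0) := by
              rw [add_smul, smul_sub]
              abel
            rw [h1]
            refine (norm_add_le _ _).trans ?_
            rw [norm_smul, Real.norm_eq_abs, abs_of_pos hμ0, map_add, map_add, map_smul,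
              smul_eq_mul]
            have h2 : μ * ‖m - m0‖ ≤ μ * (D / 10 + κ * (s0 - f0 m)) := by
              gcongr
              exact hsl m hm
            have h3 : κ * f0 d ≤ κ * (β * μ) := by gcongr
            linarith
          · simp only
            have h1 : 2 * D * μ ≤ 2 * D * θ := by gcongr
            refine (hloc S d _ (D / 20 * μ) (hS.trans hη1) (by linarith) (by positivity)
              (fun i hi => q2 i hi) hB).mono ?_
            rw [hτ]
            linarith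
        refine ⟨⟨_, hInv⟩, ?_, ?_⟩
        · simp only
          rcases hu4 with h1 | h1
          · left
            rw [h1, hrρ, hh]
          · right
            rw [hτ, h1]
        · simp only
          rw [hτ, add_sub_cancel_left, add_sub_cancel_left]
          exact hdn)
  simp only at hG hr hρ hρ1 hrρ hL hPos hN hB hT
  have hrw : r = w' := by
    rw [hh] at hT
    have := mul_left_cancel₀ hw0.ne' hT
    linarith
  subst hrw
  have hρe : ρ = 1 := by
    have : r * ρ = r * 1 := by rw [hrρ, mul_one]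
    exact mul_left_cancel₀ hr.ne' this
  subst hρe
  have hL' : Γ.Lev G δ1 := by
    rcases hL with ⟨-, h1⟩ | h1
    · exact absurd h1 hw'1.ne
    · exact h1
  have h1 := htight G r hG hL'
  have h2 : c ≤ f0 (x (F0 * G)) := by
    by_contra hcon
    exact hPos (Forces.done _ (by simpa using hcon))
  have h3 := hB.norm_le hf (by norm_num) (by positivity)
  rw [hT] at hN h3
  rw [← hh] at h1
  have h4 : x (F0 * G) - (x F0 + h • m0) = (x (F0 * G) - x F0 - h • m0 - S) + S := by abel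
  have h5 := norm_add_le (x (F0 * G) - x F0 - h • m0 - S) S
  rw [← h4] at h5
  have h6 : κ * (s0 * h - (f0 (x (F0 * G)) - f0 (x F0)) + β * h) ≤ κ * (2 * β * h) := by
    gcongr
    linarith
  have h7 : κ * β * h ≤ D / 20 * h := by gcongr
  have h8 : 0 < h * D := by positivity
  linarith

end Vale.Agent.P079
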