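import Vale.Agent.P079.Basic

/-!
Minimal invariant sets, the Goebel-Karlovitz lemma, and resolvents.
-/

namespace Vale.Agent.P079

open Filter Topology

variable {E : Type*} [NormedAddCommGroup E] [NormedSpace ℝ E]

/-- Nonempty closed convex invariant sets. -/
def Inva (T : E → E) (K : Set E) : Prop :=
  K.Nonempty ∧ IsClosed K ∧ Convex ℝ K ∧ Set.MapsTo T K K

theorem exists_minimal (hE : Refl E) (T : E → E) (C : Set E) (hC : Inva T C) (R : ℝ)
    (hR : ∀ a ∈ C, ‖a‖ ≤ R) :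
    ∃ K ⊆ C, Inva T K ∧ ∀ K' ⊆ K, Inva T K' → K ⊆ K' := by
  obtain ⟨K, hKC, hK⟩ := zorn_superset_nonempty {K | K ⊆ C ∧ Inva T K} (by
    intro c hc hchain hne
    obtain ⟨s0, hs0⟩ := hne
    have : Nonempty c := ⟨⟨s0, hs0⟩⟩
    have hdir : Directed (· ≥ ·) (fun s : c => (𝓟 (s : Set E) : Filter E)) := by
      intro s t
      rcases hchain.total s.2 t.2 with h | h
      · exact ⟨s, le_rfl, principal_mono.2 h⟩
      · exact ⟨t, principal_mono.2 h, le_rfl⟩
    have hnb : (⨅ s : c, (𝓟 (s : Set E) : Filter E)).NeBot :=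
      iInf_neBot_of_directed' hdir (fun s => principal_neBot_iff.2 (hc s.2).2.1)
    let U := Ultrafilter.of (⨅ s : c, (𝓟 (s : Set E) : Filter E))
    have hU : ∀ s ∈ c, s ∈ U := fun s hs =>
      Ultrafilter.of_le (⨅ s : c, (𝓟 (s : Set E) : Filter E))
        (mem_iInf_of_mem ⟨s, hs⟩ (mem_principal_self s))
    obtain ⟨x, hx⟩ := hE.exists_wt U id R (by
      filter_upwards [hU s0 hs0] with a ha using hR a ((hc hs0).1 ha))
    refine ⟨⋂₀ c, ⟨(Set.sInter_subset_of_mem hs0).trans (hc hs0).1, ⟨x, ?_⟩, ?_, ?_, ?_⟩,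
      fun s hs => Set.sInter_subset_of_mem hs⟩
    · intro s hs
      exact hx.mem (hc hs).2.2.2.1 (hc hs).2.2.1 (hU s hs)
    · exact isClosed_sInter fun s hs => (hc hs).2.2.1
    · exact convex_sInter fun s hs => (hc hs).2.2.2.1
    · intro a ha s hs
      exact (hc hs).2.2.2.2 (ha s hs)) C ⟨le_rfl, hC⟩
  refine ⟨K, hKC, hK.prop.2, fun K' hK' hI => ?_⟩
  exact hK.le_of_le ⟨hK'.trans hKC, hI⟩ hK'

theorem goebel_karlovitz (hE : Refl E) (T : E → E) (K : Set E) (hK : Inva T K)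
    (hmin : ∀ K' ⊆ K, Inva T K' → K ⊆ K')
    (hT : ∀ a ∈ K, ∀ b ∈ K, ‖T a - T b‖ ≤ ‖a - b‖) (D : ℝ)
    (hD : ∀ a ∈ K, ∀ b ∈ K, ‖a - b‖ ≤ D) (hD' : ∀ r < D, ∃ a ∈ K, ∃ b ∈ K, r < ‖a - b‖)
    (x : E) (hx : x ∈ K) (ε : ℝ) (hε : 0 < ε) :
    ∃ δ > 0, ∀ y ∈ K, ‖T y - y‖ ≤ δ → D - ε ≤ ‖y - x‖ := by
  by_contra hcon
  push Not at hcon
  obtain ⟨hne, hcl, hcv, hmap⟩ := hK
  choose y hy1 hy2 hy3 using fun n : ℕ => hcon (1 / ((n : ℝ) + 1)) (by positivity)
  obtain ⟨r, hr⟩ : ∃ r, r = D - ε := ⟨_, rfl⟩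
  rw [← hr] at hy3
  have hA : K ⊆ {z ∈ K | ∀ β > 0, ∀ᶠ n in atTop, ‖z - y n‖ ≤ r + β} := by
    apply hmin _ (Set.sep_subset _ _)
    refine ⟨⟨x, hx, fun β hβ => Eventually.of_forall fun n => ?_⟩, ?_, ?_, ?_⟩
    · rw [norm_sub_rev]
      linarith [hy3 n]
    · rw [← closure_subset_iff_isClosed]
      intro z hz
      refine ⟨hcl.closure_subset (closure_mono (Set.sep_subset _ _) hz), fun β hβ => ?_⟩
      obtain ⟨z', hz', hzz⟩ := Metric.mem_closure_iff.1 hz (β / 2) (half_pos hβ)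
      rw [dist_eq_norm] at hzz
      filter_upwards [hz'.2 (β / 2) (half_pos hβ)] with n hn
      have : ‖z - y n‖ ≤ ‖z - z'‖ + ‖z' - y n‖ := norm_sub_le_norm_sub_add_norm_sub _ _ _
      linarith
    · intro a ha b hb s t hs ht hst
      refine ⟨hcv ha.1 hb.1 hs ht hst, fun β hβ => ?_⟩
      filter_upwards [ha.2 β hβ, hb.2 β hβ] with n h1 h2
      have h3 : s • a + t • b ∈ Metric.closedBall (y n) (r + β) :=
        convex_closedBall _ _ (by simpa [dist_eq_norm] using h1) (by simpa [dist_eq_norm] using h2)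
          hs ht hst
      simpa [dist_eq_norm] using h3
    · intro z hz
      refine ⟨hmap hz.1, fun β hβ => ?_⟩
      have h0 : ∀ᶠ n : ℕ in atTop, 1 / ((n : ℝ) + 1) ≤ β / 2 :=
        tendsto_one_div_add_atTop_nhds_zero_nat.eventually (ge_mem_nhds (half_pos hβ))
      filter_upwards [hz.2 (β / 2) (half_pos hβ), h0] with n h1 h2
      have h3 : ‖T z - y n‖ ≤ ‖T z - T (y n)‖ + ‖T (y n) - y n‖ :=
        norm_sub_le_norm_sub_add_norm_sub _ _ _
      have h4 := hT z hz.1 (y n) (hy1 n)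
      have h5 := hy2 n
      linarith
  obtain ⟨v, hv⟩ := hE.exists_wt (hyperfilter ℕ) y (‖x‖ + D) (Eventually.of_forall fun n => by
    have h1 := hD (y n) (hy1 n) x hx
    have h2 : ‖y n‖ ≤ ‖x‖ + ‖y n - x‖ := by
      calc ‖y n‖ = ‖x + (y n - x)‖ := by congr 1; abel
        _ ≤ _ := norm_add_le _ _
    linarith)
  have hvK : v ∈ K := hv.mem hcv hcl (Eventually.of_forall hy1)
  have hB : K ⊆ {w ∈ K | ∀ z ∈ K, ‖z - w‖ ≤ r} := by
    apply hmin _ (Set.sep_subset _ _)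
    refine ⟨⟨v, hvK, fun z hz => ?_⟩, ?_, ?_, ?_⟩
    · apply le_of_forall_pos_le_add
      intro β hβ
      exact ((wt_const _ z).sub hv).norm_le
        (((hA hz).2 β hβ).filter_mono Nat.hyperfilter_le_atTop)
    · have : {w ∈ K | ∀ z ∈ K, ‖z - w‖ ≤ r} = K ∩ ⋂ z ∈ K, Metric.closedBall z r := by
        ext w
        simp [dist_eq_norm, norm_sub_rev]
      rw [this]
      exact hcl.inter (isClosed_biInter fun z _ => Metric.isClosed_closedBall)
    · have : {w ∈ K | ∀ z ∈ K, ‖z - w‖ ≤ r} = K ∩ ⋂ z ∈ K, Metric.closedBall z r := by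
        ext w
        simp [dist_eq_norm, norm_sub_rev]
      rw [this]
      exact hcv.inter (convex_iInter₂ fun z _ => convex_closedBall _ _)
    · intro w hw
      refine ⟨hmap hw.1, ?_⟩
      have hsub : ∀ z ∈ K, T z ∈ K ∩ Metric.closedBall (T w) r := by
        intro z hz
        refine ⟨hmap hz, ?_⟩
        rw [Metric.mem_closedBall, dist_eq_norm]
        exact (hT z hz w hw.1).trans (hw.2 z hz)
      have : K ⊆ K ∩ Metric.closedBall (T w) r := by
        apply hmin _ Set.inter_subset_left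
        exact ⟨⟨T x, hsub x hx⟩, hcl.inter Metric.isClosed_closedBall,
          hcv.inter (convex_closedBall _ _), fun z hz => hsub z hz.1⟩
      intro z hz
      have := (this hz).2
      rwa [Metric.mem_closedBall, dist_eq_norm] at this
  obtain ⟨a, ha, b, hb, hab⟩ := hD' r (by linarith)
  have := (hB hb).2 a ha
  linarith

theorem exists_resolvent [CompleteSpace E] (T : E → E) (K : Set E) (hK : Inva T K)
    (hT : ∀ a ∈ K, ∀ b ∈ K, ‖T a - T b‖ ≤ ‖a - b‖) (l : ℝ) (hl : 0 < l) (hl1 : l ≤ 1)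
    (u : E) (hu : u ∈ K) : ∃ z ∈ K, z = l • u + (1 - l) • T z := by
  obtain ⟨hne, hcl, hcv, hmap⟩ := hK
  have : CompleteSpace K := hcl.completeSpace_coe
  have : Nonempty K := hne.to_subtype
  let Φ : K → K := fun z => ⟨l • u + (1 - l) • T z,
    hcv hu (hmap z.2) hl.le (by linarith) (by ring)⟩
  have h0 : (0 : ℝ) ≤ 1 - l := by linarith
  have hΦ : ContractingWith (Real.toNNReal (1 - l)) Φ := by
    refine ⟨?_, LipschitzWith.of_dist_le_mul fun a b => ?_⟩
    · rw [← NNReal.coe_lt_coe, Real.coe_toNNReal _ h0]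
      simp [hl]
    · rw [Subtype.dist_eq, Subtype.dist_eq, dist_eq_norm, dist_eq_norm, Real.coe_toNNReal _ h0]
      simp only [Φ]
      rw [add_sub_add_left_eq_sub, ← smul_sub, norm_smul, Real.norm_eq_abs, abs_of_nonneg h0]
      gcongr
      exact hT _ a.2 _ b.2
  have h := hΦ.fixedPoint_isFixedPt
  exact ⟨_, (hΦ.fixedPoint Φ).2, (congrArg Subtype.val h).symm⟩

end Vale.Agent.P079
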