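import Vale.Agent.P079.Minimal
import Vale.Agent.P079.Main

/-!
Pieces on a minimal invariant set, and the fixed point theorem in separable reflexive spaces.
-/

namespace Vale.Agent.P079

open Filter Topology

variable {E : Type*} [NormedAddCommGroup E] [NormedSpace ℝ E]

/-- A piece of weight `w`. -/
def Good (T : E → E) (K : Set E) (D : ℝ) (F : Function.End K) (w : ℝ) : Prop :=
  0 ≤ w ∧ (∀ a b : K, ‖(F a : E) - F b‖ ≤ w * ‖(a : E) - b‖) ∧
    ∀ ε > 0, ∃ δ > 0, ∀ y : K, ‖T y - y‖ ≤ δ → ‖(F y : E) - y‖ ≤ (1 - w) * D + ε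

/-- A piece of level `δ`. -/
def Lev (T : E → E) (K : Set E) (F : Function.End K) (δ : ℝ) : Prop :=
  ∀ y : K, ‖T (F y) - F y‖ ≤ δ

omit [NormedSpace ℝ E] in
theorem good_mul (T : E → E) (K : Set E) (D : ℝ) (F G : Function.End K) (w w' : ℝ)
    (hF : Good T K D F w) (hG : Good T K D G w') : Good T K D (F * G) (w * w') := by
  obtain ⟨h1, h2, h3⟩ := hF
  obtain ⟨g1, g2, g3⟩ := hG
  refine ⟨mul_nonneg h1 g1, fun a b => ?_, fun ε hε => ?_⟩
  · calc ‖(F (G a) : E) - F (G b)‖ ≤ w * ‖(G a : E) - G b‖ := h2 _ _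
      _ ≤ w * (w' * ‖(a : E) - b‖) := by gcongr; exact g2 a b
      _ = w * w' * ‖(a : E) - b‖ := by ring
  · have hε' : 0 < ε / (w + 1) := by positivity
    obtain ⟨δ1, hδ1, k1⟩ := h3 _ hε'
    obtain ⟨δ2, hδ2, k2⟩ := g3 _ hε'
    refine ⟨min δ1 δ2, lt_min hδ1 hδ2, fun y hy => ?_⟩
    have e1 := k1 y (hy.trans (min_le_left _ _))
    have e2 := k2 y (hy.trans (min_le_right _ _))
    have e3 : ‖(F (G y) : E) - y‖ ≤ ‖(F (G y) : E) - F y‖ + ‖(F y : E) - y‖ :=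
      norm_sub_le_norm_sub_add_norm_sub _ _ _
    have e4 := h2 (G y) y
    have e5 : w * ‖(G y : E) - y‖ ≤ w * ((1 - w') * D + ε / (w + 1)) := by gcongr
    have e6 : w * (ε / (w + 1)) + ε / (w + 1) = ε := by field_simp
    change ‖(F (G y) : E) - y‖ ≤ _
    linarith

theorem exists_piece [CompleteSpace E] (T : E → E) (K : Set E) (hK : Inva T K)
    (hT : ∀ a ∈ K, ∀ b ∈ K, ‖T a - T b‖ ≤ ‖a - b‖) (D : ℝ) (hD0 : 0 < D)
    (hD : ∀ a ∈ K, ∀ b ∈ K, ‖a - b‖ ≤ D) (w δ : ℝ) (hw : 0 < w) (hw1 : w < 1) (hδ : 0 < δ) :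
    ∃ F, Good T K D F w ∧ Lev T K F δ := by
  obtain ⟨x0, hx0⟩ := hK.1
  obtain ⟨l, hl, hl1, hlD⟩ : ∃ l : ℝ, 0 < l ∧ l ≤ 1 ∧ l * D ≤ δ := by
    refine ⟨min 1 (δ / D), lt_min one_pos (by positivity), min_le_left _ _, ?_⟩
    calc min 1 (δ / D) * D ≤ δ / D * D := by gcongr; exact min_le_right _ _
      _ = δ := by field_simp
  have hu : ∀ y : K, w • (y : E) + (1 - w) • x0 ∈ K := fun y =>
    hK.2.2.1 y.2 hx0 hw.le (by linarith) (by ring)
  choose z hz1 hz2 using fun y : K => exists_resolvent T K hK hT l hl hl1 _ (hu y)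
  have h1l : 0 ≤ 1 - l := by linarith
  have h1w : 0 ≤ 1 - w := by linarith
  refine ⟨fun y => ⟨z y, hz1 y⟩, ⟨hw.le, fun a b => ?_, fun ε hε => ⟨l * ε, by positivity,
    fun y hy => ?_⟩⟩, fun y => ?_⟩
  · change ‖z a - z b‖ ≤ _
    have e1 : z a - z b = (l * w) • ((a : E) - b) + (1 - l) • (T (z a) - T (z b)) := by
      conv_lhs => rw [hz2 a, hz2 b]
      module
    have e2 : ‖z a - z b‖ ≤ l * w * ‖(a : E) - b‖ + (1 - l) * ‖T (z a) - T (z b)‖ := by
      conv_lhs => rw [e1]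
      refine (norm_add_le _ _).trans ?_
      rw [norm_smul, norm_smul, Real.norm_eq_abs, Real.norm_eq_abs, abs_of_nonneg h1l,
        abs_of_nonneg (by positivity)]
    have e3 : (1 - l) * ‖T (z a) - T (z b)‖ ≤ (1 - l) * ‖z a - z b‖ := by
      gcongr
      exact hT _ (hz1 a) _ (hz1 b)
    have e4 : l * ‖z a - z b‖ ≤ l * (w * ‖(a : E) - b‖) := by linarith
    exact le_of_mul_le_mul_left e4 hl
  · change ‖z y - y‖ ≤ _
    have e1 : z y - y = (l * (1 - w)) • (x0 - (y : E)) + (1 - l) • (T (z y) - T y)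
        + (1 - l) • (T y - y) := by
      conv_lhs => rw [hz2 y]
      module
    have e2 : ‖z y - y‖ ≤ l * (1 - w) * ‖x0 - (y : E)‖ + (1 - l) * ‖T (z y) - T y‖
        + (1 - l) * ‖T y - y‖ := by
      conv_lhs => rw [e1]
      refine (norm_add₃_le).trans ?_
      rw [norm_smul, norm_smul, norm_smul, Real.norm_eq_abs, Real.norm_eq_abs, abs_of_nonneg h1l,
        abs_of_nonneg (by positivity)]
    have e3 : (1 - l) * ‖T (z y) - T y‖ ≤ (1 - l) * ‖z y - y‖ := by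
      gcongr
      exact hT _ (hz1 y) _ y.2
    have e4 : l * (1 - w) * ‖x0 - (y : E)‖ ≤ l * (1 - w) * D := by
      gcongr
      exact hD _ hx0 _ y.2
    have e5 : (1 - l) * ‖T y - y‖ ≤ 1 * (l * ε) := by
      gcongr
      linarith
    have e6 : l * ‖z y - y‖ ≤ l * ((1 - w) * D + ε) := by linarith
    exact le_of_mul_le_mul_left e6 hl
  · change ‖T (z y) - z y‖ ≤ _
    have e1 : T (z y) - z y = l • (T (z y) - (w • (y : E) + (1 - w) • x0)) := by
      calc T (z y) - z y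
          = T (z y) - (l • (w • (y : E) + (1 - w) • x0) + (1 - l) • T (z y)) := by rw [← hz2 y]
        _ = _ := by module
    rw [e1, norm_smul, Real.norm_eq_abs, abs_of_pos hl]
    refine le_trans ?_ hlD
    gcongr
    exact hD _ (hK.2.2.2 (hz1 y)) _ (hu y)

theorem separable_fpp [CompleteSpace E] [TopologicalSpace.SeparableSpace E] (hE : Refl E)
    (T : E → E) (C : Set E) (hC : Inva T C) (R : ℝ) (hR : ∀ a ∈ C, ‖a‖ ≤ R)
    (hTC : ∀ a ∈ C, ∀ b ∈ C, ‖T a - T b‖ ≤ ‖a - b‖) : ∃ a ∈ C, T a = a := by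
  obtain ⟨K, hKC, hK, hmin⟩ := exists_minimal hE T C hC R hR
  have hT : ∀ a ∈ K, ∀ b ∈ K, ‖T a - T b‖ ≤ ‖a - b‖ := fun a ha b hb =>
    hTC a (hKC ha) b (hKC hb)
  obtain ⟨x0, hx0⟩ := hK.1
  by_contra hno
  have hne : T x0 ≠ x0 := fun h => hno ⟨x0, hKC hx0, h⟩
  let S : Set ℝ := {r | ∃ a ∈ K, ∃ b ∈ K, ‖a - b‖ = r}
  have hSb : BddAbove S := by
    refine ⟨2 * R, ?_⟩
    rintro _ ⟨a, ha, b, hb, rfl⟩
    have := norm_sub_le a b
    have := hR a (hKC ha)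
    have := hR b (hKC hb)
    linarith
  obtain ⟨D, hDS⟩ : ∃ D, D = sSup S := ⟨_, rfl⟩
  have hD : ∀ a ∈ K, ∀ b ∈ K, ‖a - b‖ ≤ D := fun a ha b hb => by
    rw [hDS]
    exact le_csSup hSb ⟨a, ha, b, hb, rfl⟩
  have hD' : ∀ r < D, ∃ a ∈ K, ∃ b ∈ K, r < ‖a - b‖ := by
    intro r hr
    rw [hDS] at hr
    obtain ⟨_, ⟨a, ha, b, hb, rfl⟩, h⟩ :=
      exists_lt_of_lt_csSup (s := S) ⟨_, x0, hx0, x0, hx0, rfl⟩ hr
    exact ⟨a, ha, b, hb, h⟩
  have hD0 : 0 < D :=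
    lt_of_lt_of_le (norm_pos_iff.2 (sub_ne_zero.2 hne)) (hD _ (hK.2.2.2 hx0) _ hx0)
  let Γ : GameData (Function.End K) :=
    { Good := Good T K D
      Lev := Lev T K
      good_one := ⟨zero_le_one, fun a b => (one_mul ‖(a : E) - b‖).ge,
        fun ε hε => ⟨1, one_pos, fun y _ => by
          change ‖(y : E) - y‖ ≤ _
          simpa using hε.le⟩⟩
      good_mul := good_mul T K D
      lev_mul := fun F G δ h y => h (G y)
      lev_mono := fun F δ δ' h h' y => (h' y).trans h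
      ex := exists_piece T K hK hT D hD0 hD }
  obtain ⟨y, hy⟩ : ∃ y : ℕ → K, ∀ δ > 0, ∀ᶠ n in (hyperfilter ℕ : Filter ℕ),
      ‖T (y n) - y n‖ ≤ δ := by
    choose F hF1 hF2 using fun n : ℕ => Γ.ex (1 / 2) (1 / ((n : ℝ) + 1)) (by norm_num)
      (by norm_num) (by positivity)
    refine ⟨fun n => F n ⟨x0, hx0⟩, fun δ hδ => ?_⟩
    have h0 : ∀ᶠ n : ℕ in atTop, 1 / ((n : ℝ) + 1) ≤ δ :=
      tendsto_one_div_add_atTop_nhds_zero_nat.eventually (ge_mem_nhds hδ)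
    filter_upwards [h0.filter_mono Nat.hyperfilter_le_atTop] with n hn
    exact (hF2 n _).trans hn
  choose x hx using fun F : Function.End K => hE.exists_wt (hyperfilter ℕ)
    (fun n => (F (y n) : E)) R (Eventually.of_forall fun n => hR _ (hKC (F (y n)).2))
  refine abstract_false hE Γ x K hK.2.2.1 hK.2.1
    (fun F => (hx F).mem hK.2.2.1 hK.2.1 (Eventually.of_forall fun n => (F (y n)).2)) D hD0 ?_ ?_
  · rintro F G w w' ⟨h1, h2, -⟩ ⟨-, -, g3⟩
    apply le_of_forall_pos_le_add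
    intro ε hε
    obtain ⟨δ, hδ, g4⟩ := g3 (ε / (w + 1)) (by positivity)
    refine ((hx (F * G)).sub (hx F)).norm_le ?_
    filter_upwards [hy δ hδ] with n hn
    have e1 := h2 (G (y n)) (y n)
    have e2 : w * ‖(G (y n) : E) - y n‖ ≤ w * ((1 - w') * D + ε / (w + 1)) := by
      gcongr
      exact g4 _ hn
    have e3 : w * (ε / (w + 1)) + ε / (w + 1) = ε := by field_simp
    have e4 : 0 < ε / (w + 1) := by positivity
    change ‖(F (G (y n)) : E) - F (y n)‖ ≤ _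
    linarith
  · intro F w hF k1 hk1 k2 hk2 k3 hk3 c hc ε hε
    have hc1 : 0 < 1 + c := by linarith
    have hv : (1 / (1 + c)) • k1 + (c / (1 + c)) • k2 ∈ K :=
      hK.2.2.1 hk1 hk2 (by positivity) (by positivity) (by field_simp)
    obtain ⟨δ1, hδ1, g1⟩ := goebel_karlovitz hE T K hK hmin hT D hD hD' _ hv (ε / 2 / (1 + c))
      (by positivity)
    obtain ⟨δ2, hδ2, g2⟩ := hF.2.2 (ε / 2) (half_pos hε)
    refine ⟨min δ1 δ2, lt_min hδ1 hδ2, fun G w' hG hL => ?_⟩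
    have hFG := good_mul T K D F G w w' hF hG
    obtain ⟨a, ha⟩ : ∃ a : K, a = G ⟨x0, hx0⟩ := ⟨_, rfl⟩
    have hLa : ‖T a - a‖ ≤ min δ1 δ2 := by rw [ha]; exact hL _
    have e1 := g1 a a.2 (hLa.trans (min_le_left _ _))
    have e2 := g2 a (hLa.trans (min_le_right _ _))
    have e3 : ‖x (F * G) - F a‖ ≤ w * w' * D := by
      refine ((hx (F * G)).sub (wt_const _ (F a : E))).norm_le (Eventually.of_forall fun n => ?_)
      rw [ha]
      refine (hFG.2.1 (y n) ⟨x0, hx0⟩).trans ?_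
      have := hFG.1
      gcongr
      exact hD _ (y n).2 _ hx0
    have e4 : (1 + c) • ((a : E) - ((1 / (1 + c)) • k1 + (c / (1 + c)) • k2)) =
        ((a : E) - (k1 + c • (k2 - k3))) + c • ((a : E) - k3) := by
      rw [smul_sub, smul_add, smul_smul, smul_smul, mul_div_cancel₀ _ hc1.ne',
        mul_div_cancel₀ _ hc1.ne']
      module
    have e5 : (1 + c) * ‖(a : E) - ((1 / (1 + c)) • k1 + (c / (1 + c)) • k2)‖ ≤
        ‖(a : E) - (k1 + c • (k2 - k3))‖ + c * ‖(a : E) - k3‖ := by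
      have := norm_add_le ((a : E) - (k1 + c • (k2 - k3))) (c • ((a : E) - k3))
      rw [← e4, norm_smul, norm_smul, Real.norm_eq_abs, Real.norm_eq_abs, abs_of_pos hc1,
        abs_of_nonneg hc] at this
      exact this
    have e6 : c * ‖(a : E) - k3‖ ≤ c * D := by
      gcongr
      exact hD _ a.2 _ hk3
    have e7 : (1 + c) * (D - ε / 2 / (1 + c)) ≤
        (1 + c) * ‖(a : E) - ((1 / (1 + c)) • k1 + (c / (1 + c)) • k2)‖ := by gcongr
    have e8 : (1 + c) * (D - ε / 2 / (1 + c)) = (1 + c) * D - ε / 2 := by field_simp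
    have e9 : ‖(a : E) - (k1 + c • (k2 - k3))‖ ≤
        ‖(a : E) - x (F * G)‖ + ‖x (F * G) - (k1 + c • (k2 - k3))‖ :=
      norm_sub_le_norm_sub_add_norm_sub _ _ _
    have e10 : ‖(a : E) - x (F * G)‖ ≤ ‖(a : E) - F a‖ + ‖(F a : E) - x (F * G)‖ :=
      norm_sub_le_norm_sub_add_norm_sub _ _ _
    rw [norm_sub_rev] at e2 e3
    linarith

end Vale.Agent.P079
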