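import Vale.Agent.P079.Basic

/-!
Three tools: a no-Zeno principle, a locally finitely determined potential, and dentability.
-/

namespace Vale.Agent.P079

open Filter Topology

theorem noZeno {E : Type*} [NormedAddCommGroup E] [CompleteSpace E] {σ : Type*}
    (pos : σ → E) (t : σ → ℝ) (h L : ℝ) (hL : 0 ≤ L) (ht : ∀ s, t s ≤ h) (s0 : σ)
    (hstep : ∀ x : E, ∃ η > 0, ∀ s, ‖pos s - x‖ ≤ η → t s < h →
      ∃ s', (t s' = h ∨ t s + η ≤ t s') ∧ ‖pos s' - pos s‖ ≤ L * (t s' - t s)) :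
    ∃ s, t s = h := by
  by_contra hno
  push Not at hno
  have hlt : ∀ s, t s < h := fun s => lt_of_le_of_ne (ht s) (hno s)
  let R : σ → σ → Prop := fun s s' => t s ≤ t s' ∧ ‖pos s' - pos s‖ ≤ L * (t s' - t s)
  have hRt : ∀ a b c, R a b → R b c → R a c := by
    intro a b c hab hbc
    refine ⟨hab.1.trans hbc.1, ?_⟩
    calc ‖pos c - pos a‖ = ‖(pos c - pos b) + (pos b - pos a)‖ := by congr 1; abel
      _ ≤ ‖pos c - pos b‖ + ‖pos b - pos a‖ := norm_add_le _ _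
      _ ≤ L * (t c - t b) + L * (t b - t a) := add_le_add hbc.2 hab.2
      _ = L * (t c - t a) := by ring
  have hnext : ∀ s, ∃ s', R s s' ∧ ∀ s'', R s s'' → t s'' - t s ≤ 2 * (t s' - t s) := by
    intro s
    have hne : (t '' {s' | R s s'}).Nonempty := ⟨t s, s, ⟨le_rfl, by simp⟩, rfl⟩
    have hbd : BddAbove (t '' {s' | R s s'}) := ⟨h, by rintro _ ⟨s', -, rfl⟩; exact ht s'⟩
    have hge : t s ≤ sSup (t '' {s' | R s s'}) := le_csSup hbd ⟨s, ⟨le_rfl, by simp⟩, rfl⟩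
    rcases hge.eq_or_lt with heq | hlt'
    · refine ⟨s, ⟨le_rfl, by simp⟩, fun s'' h'' => ?_⟩
      have : t s'' ≤ sSup (t '' {s' | R s s'}) := le_csSup hbd ⟨s'', h'', rfl⟩
      linarith
    · obtain ⟨_, ⟨s', hs', rfl⟩, h2⟩ := exists_lt_of_lt_csSup hne
        (show (t s + sSup (t '' {s' | R s s'})) / 2 < sSup (t '' {s' | R s s'}) by linarith)
      refine ⟨s', hs', fun s'' h'' => ?_⟩
      have : t s'' ≤ sSup (t '' {s' | R s s'}) := le_csSup hbd ⟨s'', h'', rfl⟩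
      linarith
  choose nx hnx1 hnx2 using hnext
  let u : ℕ → σ := fun n => nx^[n] s0
  have hu : ∀ n, u (n + 1) = nx (u n) := fun n => Function.iterate_succ_apply' nx n s0
  have hRu : ∀ n m, n ≤ m → R (u n) (u m) := by
    intro n m hnm
    induction m, hnm using Nat.le_induction with
    | base => exact ⟨le_rfl, by simp⟩
    | succ m _ ih => exact hRt _ _ _ ih (by rw [hu]; exact hnx1 _)
  have hmono : Monotone (fun n => t (u n)) := fun n m hnm => (hRu n m hnm).1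
  have hbdd : BddAbove (Set.range fun n => t (u n)) := ⟨h, by rintro _ ⟨n, rfl⟩; exact ht _⟩
  have hconv := tendsto_atTop_ciSup hmono hbdd
  set τ := ⨆ n, t (u n) with hτ
  have hleτ : ∀ n, t (u n) ≤ τ := fun n => le_ciSup hbdd n
  have hcau : CauchySeq (fun n => pos (u n)) := by
    refine cauchySeq_of_le_tendsto_0' (fun n => L * (τ - t (u n))) ?_ ?_
    · intro n m hnm
      rw [dist_comm, dist_eq_norm]
      refine (hRu n m hnm).2.trans ?_
      gcongr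
      exact hleτ m
    · have : Tendsto (fun n => L * (τ - t (u n))) atTop (𝓝 (L * (τ - τ))) :=
        (tendsto_const_nhds.sub hconv).const_mul L
      simpa using this
  obtain ⟨x, hx⟩ := cauchySeq_tendsto_of_complete hcau
  obtain ⟨η, hη, hs⟩ := hstep x
  have e1 : ∀ᶠ n in atTop, ‖pos (u n) - x‖ ≤ η := by
    have := (Metric.tendsto_nhds.1 hx) η hη
    filter_upwards [this] with n hn
    rw [dist_eq_norm] at hn
    exact hn.le
  have e2 : ∀ᶠ n in atTop, τ - η / 2 < t (u n) :=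
    hconv.eventually (lt_mem_nhds (by linarith))
  obtain ⟨n, hn1, hn2⟩ := (e1.and e2).exists
  obtain ⟨s', hs1, hs2⟩ := hs (u n) hn1 (hlt _)
  rcases hs1 with hs1 | hs1
  · exact hno s' hs1
  · have := hnx2 (u n) s' ⟨by linarith, hs2⟩
    have h3 := hleτ (n + 1)
    rw [hu] at h3
    linarith

variable {E : Type*} [NormedAddCommGroup E] [NormedSpace ℝ E]

/-- The potential bound. -/
def Bound (f : ℕ → StrongDual ℝ E) (ε l : ℝ) (S : E) (c : ℝ) : Prop :=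
  ∀ (i : ℕ) (g : StrongDual ℝ E), ‖g‖ ≤ 1 → ‖g - f i‖ ≤ ε → g S + l * (1 / 2) ^ i ≤ c

theorem bound_zero (f : ℕ → StrongDual ℝ E) (ε : ℝ) {l : ℝ} (hl : 0 ≤ l) : Bound f ε l 0 l := by
  intro i g _ _
  have : (1 / 2 : ℝ) ^ i ≤ 1 := pow_le_one₀ (by norm_num) (by norm_num)
  rw [map_zero, zero_add]
  nlinarith

theorem Bound.mono {f : ℕ → StrongDual ℝ E} {ε l : ℝ} {S : E} {c c' : ℝ} (h : Bound f ε l S c)
    (hc : c ≤ c') : Bound f ε l S c' := fun i g h1 h2 => (h i g h1 h2).trans hc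

theorem Bound.norm_le {f : ℕ → StrongDual ℝ E} (hf : DenseRange f) {ε l : ℝ} (hε : 0 < ε)
    (hl : 0 ≤ l) {S : E} {c : ℝ} (h : Bound f ε l S c) : ‖S‖ ≤ c := by
  obtain ⟨g, hg1, hg2⟩ := exists_dual_vector'' ℝ S
  obtain ⟨i, hi⟩ := hf.exists_dist_lt g hε
  rw [dist_eq_norm] at hi
  have := h i g hg1 hi.le
  have h2 : 0 ≤ l * (1 / 2 : ℝ) ^ i := by positivity
  have h3 : g S = ‖S‖ := by simpa using hg2
  linarith

theorem bound_local {f : ℕ → StrongDual ℝ E} (hf : DenseRange f) {ε l : ℝ} (hε : 0 < ε)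
    (hl : 0 < l) (x : E) : ∃ (n : ℕ) (η : ℝ), 0 < η ∧ ∀ (S d : E) (c γ : ℝ), ‖S - x‖ ≤ η →
      ‖d‖ ≤ η → 0 ≤ γ → (∀ i ≤ n, f i d ≤ γ) → Bound f ε l S c →
      Bound f ε l (S + d) (c + γ + ε * ‖d‖) := by
  obtain ⟨g0, hg1, hg2⟩ := exists_dual_vector'' ℝ x
  obtain ⟨n, hn⟩ := hf.exists_dist_lt g0 hε
  rw [dist_eq_norm] at hn
  have hg3 : g0 x = ‖x‖ := by simpa using hg2
  have hp : 0 < l * (1 / 2 : ℝ) ^ n := by positivity
  refine ⟨n, l * (1 / 2) ^ n / 8, by positivity, ?_⟩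
  intro S d c γ hS hd hγ hfd hB i g hg hgi
  have hgle : ∀ (g : StrongDual ℝ E), ‖g‖ ≤ 1 → ∀ y, |g y| ≤ ‖y‖ := by
    intro g hg y
    calc |g y| ≤ ‖g‖ * ‖y‖ := g.le_opNorm _
      _ ≤ 1 * ‖y‖ := by gcongr
      _ = ‖y‖ := one_mul _
  rcases le_or_gt i n with hi | hi
  · have h1 := hB i g hg hgi
    have h2 := hfd i hi
    have h3 : |(g - f i) d| ≤ ‖g - f i‖ * ‖d‖ := (g - f i).le_opNorm _
    have h4 : ‖g - f i‖ * ‖d‖ ≤ ε * ‖d‖ := by gcongr
    have h5 := (le_abs_self _).trans (h3.trans h4)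
    rw [sub_apply] at h5
    rw [map_add]
    linarith
  · have h1 := hB n g0 hg1 hn.le
    have h2 := abs_le.1 (hgle g0 hg1 (S - x))
    have h3 := abs_le.1 (hgle g hg (S - x))
    have h4 := abs_le.1 (hgle g hg d)
    have h5 := abs_le.1 (hgle g hg x)
    rw [map_sub] at h2 h3
    have h6 : (1 / 2 : ℝ) ^ i ≤ (1 / 2) ^ (n + 1) :=
      pow_le_pow_of_le_one (by norm_num) (by norm_num) hi
    have h7 : l * (1 / 2 : ℝ) ^ i ≤ l * (1 / 2) ^ n / 2 := by
      calc l * (1 / 2 : ℝ) ^ i ≤ l * (1 / 2) ^ (n + 1) := by gcongr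
        _ = l * (1 / 2) ^ n / 2 := by ring
    have h8 : 0 ≤ ε * ‖d‖ := by positivity
    rw [map_add]
    linarith

theorem dentable (hE : Refl E) [TopologicalSpace.SeparableSpace E] (A : Set E) (hne : A.Nonempty)
    (D : ℝ) (hD : ∀ m ∈ A, ‖m‖ ≤ D) (ε : ℝ) (hε : 0 < ε) :
    ∃ (f : StrongDual ℝ E) (s κ : ℝ) (m0 : E), 0 ≤ κ ∧ m0 ∈ A ∧
      (∀ β > 0, ∃ m ∈ A, s - β < f m) ∧
      ∀ m ∈ A, ‖m - m0‖ ≤ ε + κ * (s - f m) := by
  have : Nonempty E := ⟨0⟩
  let c : ℕ → E := TopologicalSpace.denseSeq E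
  have hc : DenseRange c := TopologicalSpace.denseRange_denseSeq E
  let C : Set E := {y | ∀ (f : StrongDual ℝ E) (a : ℝ), (∀ m ∈ A, f m ≤ a) → f y ≤ a}
  have hbdd : ∀ f : StrongDual ℝ E, BddAbove (f '' A) := by
    intro f
    refine ⟨‖f‖ * D, ?_⟩
    rintro _ ⟨m, hm, rfl⟩
    calc f m ≤ |f m| := le_abs_self _
      _ ≤ ‖f‖ * ‖m‖ := f.le_opNorm _
      _ ≤ ‖f‖ * D := by gcongr; exact hD m hm
  have hsup : ∀ f : StrongDual ℝ E, ∀ β > 0, ∃ m ∈ A, sSup (f '' A) - β < f m := by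
    intro f β hβ
    obtain ⟨_, ⟨m, hm, rfl⟩, h⟩ := exists_lt_of_lt_csSup (hne.image f)
      (show sSup (f '' A) - β < sSup (f '' A) by linarith)
    exact ⟨m, hm, h⟩
  have hD0 : 0 ≤ D := by
    obtain ⟨m, hm⟩ := hne
    exact (norm_nonneg m).trans (hD m hm)
  have hCD : ∀ y ∈ C, ‖y‖ ≤ D := by
    intro y hy
    obtain ⟨g, hg1, hg2⟩ := exists_dual_vector'' ℝ y
    have h3 : g y = ‖y‖ := by simpa using hg2
    rw [← h3]
    apply hy
    intro m hm
    calc g m ≤ |g m| := le_abs_self _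
      _ ≤ ‖g‖ * ‖m‖ := g.le_opNorm _
      _ ≤ 1 * D := by gcongr; exact hD m hm
      _ = D := one_mul _
  let B : ℕ → Set (StrongDual ℝ E) := fun j =>
    {f | ∀ z ∈ A, ∀ β > 0, ∃ y ∈ C, ‖y - c j‖ ≤ ε / 4 ∧ f z ≤ f y + β}
  have hBc : ∀ j, IsClosed (B j) := by
    intro j
    rw [← closure_subset_iff_isClosed]
    intro f hf z hz β hβ
    have hη : 0 < β / (2 * (2 * D + 1)) := by positivity
    obtain ⟨g, hg, hfg⟩ := Metric.mem_closure_iff.1 hf _ hη
    obtain ⟨y, hy, hy1, hy2⟩ := hg z hz (β / 2) (by positivity)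
    refine ⟨y, hy, hy1, ?_⟩
    rw [dist_eq_norm] at hfg
    have h1 : |(f - g) (z - y)| ≤ ‖f - g‖ * ‖z - y‖ := (f - g).le_opNorm _
    have h2 : ‖z - y‖ ≤ 2 * D + 1 := by
      have := norm_sub_le z y
      have := hD z hz
      have := hCD y hy
      linarith
    have h3 : ‖f - g‖ * ‖z - y‖ ≤ β / (2 * (2 * D + 1)) * (2 * D + 1) := by gcongr
    have h4 : β / (2 * (2 * D + 1)) * (2 * D + 1) = β / 2 := by field_simp
    have h5 := (le_abs_self _).trans (h1.trans h3)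
    rw [h4, sub_apply, map_sub, map_sub] at h5
    linarith
  have hBu : ⋃ j, B j = Set.univ := by
    rw [Set.eq_univ_iff_forall]
    intro f
    choose m hm1 hm2 using fun n : ℕ => hsup f (1 / ((n : ℝ) + 1)) (by positivity)
    obtain ⟨y, hy⟩ := hE.exists_wt (hyperfilter ℕ) m D
      (Eventually.of_forall fun n => hD _ (hm1 n))
    have hyC : y ∈ C := fun g a hg =>
      le_of_tendsto (hy g) (Eventually.of_forall fun n => hg _ (hm1 n))
    have hfy : sSup (f '' A) ≤ f y := by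
      have h1 : Tendsto (fun n : ℕ => sSup (f '' A) - 1 / ((n : ℝ) + 1)) atTop
          (𝓝 (sSup (f '' A) - 0)) :=
        tendsto_const_nhds.sub tendsto_one_div_add_atTop_nhds_zero_nat
      rw [sub_zero] at h1
      exact le_of_tendsto_of_tendsto' (h1.mono_left Nat.hyperfilter_le_atTop) (hy f)
        (fun n => (hm2 n).le)
    obtain ⟨j, hj⟩ := hc.exists_dist_lt y (show 0 < ε / 4 by positivity)
    rw [dist_eq_norm] at hj
    refine Set.mem_iUnion.2 ⟨j, fun z hz β hβ => ⟨y, hyC, hj.le, ?_⟩⟩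
    have := le_csSup (hbdd f) ⟨z, hz, rfl⟩
    linarith
  obtain ⟨j, f, hf⟩ := nonempty_interior_of_iUnion_of_closed hBc hBu
  obtain ⟨ρ, hρ, hball⟩ := Metric.mem_nhds_iff.1 (mem_interior_iff_mem_nhds.1 hf)
  set s := sSup (f '' A) with hs
  have hsl : ∀ z ∈ A, s - ρ * ε / 16 ≤ f z → ‖z - c j‖ ≤ ε / 2 := by
    intro z hz hfz
    obtain ⟨g, hg1, hg2⟩ := exists_dual_vector'' ℝ (z - c j)
    have h3 : g (z - c j) = ‖z - c j‖ := by simpa using hg2
    have hmem : f + (ρ / 2) • g ∈ B j := by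
      apply hball
      rw [Metric.mem_ball, dist_eq_norm, add_sub_cancel_left, norm_smul, Real.norm_eq_abs,
        abs_of_pos (half_pos hρ)]
      nlinarith [norm_nonneg g]
    obtain ⟨y, hy, hy1, hy2⟩ := hmem z hz (ρ * ε / 16) (by positivity)
    have h4 : f y ≤ s := hy f s (fun m hm => le_csSup (hbdd f) ⟨m, hm, rfl⟩)
    have h5 : g (y - c j) ≤ ε / 4 := by
      calc g (y - c j) ≤ |g (y - c j)| := le_abs_self _
        _ ≤ ‖g‖ * ‖y - c j‖ := g.le_opNorm _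
        _ ≤ 1 * (ε / 4) := by gcongr
        _ = ε / 4 := one_mul _
    simp only [add_apply, smul_apply, smul_eq_mul] at hy2
    rw [map_sub] at h3 h5
    have h6 : ρ / 2 * (g z - g y) ≤ ρ / 2 * (ε / 4) := by linarith
    have h7 : g z - g y ≤ ε / 4 := le_of_mul_le_mul_left h6 (half_pos hρ)
    linarith
  have hα : 0 < ρ * ε / 16 := by positivity
  obtain ⟨m0, hm0, hm0'⟩ := hsup f _ hα
  refine ⟨f, s, 2 * D / (ρ * ε / 16), m0, by positivity, hm0, hsup f, ?_⟩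
  intro m hm
  have h1 : f m ≤ s := le_csSup (hbdd f) ⟨m, hm, rfl⟩
  rcases le_or_gt (s - ρ * ε / 16) (f m) with h | h
  · have h2 := hsl m hm h
    have h3 := hsl m0 hm0 hm0'.le
    have h4 : ‖m - m0‖ ≤ ‖m - c j‖ + ‖m0 - c j‖ := by
      calc ‖m - m0‖ = ‖(m - c j) - (m0 - c j)‖ := by congr 1; abel
        _ ≤ _ := norm_sub_le _ _
    have h5 : 0 ≤ 2 * D / (ρ * ε / 16) * (s - f m) := by
      have : 0 ≤ s - f m := by linarith
      positivity
    linarith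
  · have h2 : ‖m - m0‖ ≤ 2 * D := by
      have := norm_sub_le m m0
      have := hD m hm
      have := hD m0 hm0
      linarith
    have h3 : 2 * D / (ρ * ε / 16) * (ρ * ε / 16) ≤ 2 * D / (ρ * ε / 16) * (s - f m) := by
      gcongr
      linarith
    rw [div_mul_cancel₀ _ hα.ne'] at h3
    linarith

end Vale.Agent.P079
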